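import Vale.Agent.P235.R2.H643.Retr
import Vale.Agent.P235.R2.H324.RowTwo
import Vale.Agent.P235.R2.H686.TR

/-!
# The step which deletes a tight set (helper643)
-/

set_option autoImplicit false
set_option linter.all false

namespace Vale.Agent.P235.H643

open Finset Vale.Agent.P235 Vale.Agent.P235.R2.H899

/-- nonexpansive extension of a function from `L` -/
theorem exists_ext {V : Type} [Finite V] {d : V → V → ℝ} (hd : IsMet d) {L : Set V}
    (hL : L.Nonempty) {h : V → ℝ} (hh : ∀ u ∈ L, ∀ v ∈ L, |h u - h v| ≤ d u v) :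
    ∃ h' : V → ℝ, (∀ u ∈ L, h' u = h u) ∧ ∀ u v, |h' u - h' v| ≤ d u v := by
  classical
  have h1 : ∀ v, ∃ m ∈ L, ∀ u ∈ L, h m + d m v ≤ h u + d u v := fun v =>
    Set.exists_min_image L (fun u => h u + d u v) (Set.toFinite _) hL
  choose m hm hmin using h1
  refine ⟨fun v => h (m v) + d (m v) v, ?_, ?_⟩
  · intro u hu
    apply le_antisymm
    · have := hmin u u hu
      rwa [hd.self, add_zero] at this
    · have := (le_abs_self _).trans (hh u hu (m u) (hm u))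
      rw [hd.symm u (m u)] at this
      show h u ≤ h (m u) + d (m u) u
      linarith
  · intro u v
    have a1 := hmin u (m v) (hm v)
    have a2 := hmin v (m u) (hm u)
    have a3 := hd.tri (m v) v u
    have a4 := hd.tri (m u) u v
    rw [hd.symm v u] at a3
    rw [abs_le]
    constructor <;> linarith

/-- **the metric part of the step** -/
theorem near_of_lanes {V : Type} [Finite V] {G : SimpleGraph V} {ℓ : Sym2 V → ℝ}
    (hc : G.Connected) (hℓ : ∀ e ∈ G.edgeSet, 0 < ℓ e) {L : Set V} (hL : L.Nonempty) {h : V → ℝ}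
    (hh : ∀ u ∈ L, ∀ v ∈ L, |h u - h v| ≤ pathDist G ℓ u v)
    (hN : ∀ K : Set V, (G.induce K).Connected → Disjoint K L →
      ∃ N : Bool → Set V, TwoLanes G ℓ h L K N)
    {C : ℝ} (hC : 0 < C) (hE : EmbedsL1 (fun u v : L => pathDist G ℓ u v) C) :
    ∃ F : V → V → ℝ, IsL1 F ∧ (∀ u v, G.Adj u v → F u v ≤ ℓ s(u, v)) ∧
      ∀ ν : V → V, Near G ℓ L ν → ∀ x y δ, 0 < δ → pathDist G ℓ x (ν x) ≤ δ →
        pathDist G ℓ y (ν y) ≤ 5 / 4 * δ → 8 * δ ≤ pathDist G ℓ x y →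
        2 * δ ≤ 84 * C * F x y := by
  classical
  have hd := pathDist_isMet hc hℓ
  obtain ⟨h', h'1, h'2⟩ := exists_ext hd hL hh
  obtain ⟨ν0, hν0⟩ := exists_near (X := L) hc hℓ hL
  have hN' : ∀ K : Set V, ∃ N : Bool → Set V, (G.induce K).Connected → Disjoint K L →
      TwoLanes G ℓ h' L K N := by
    intro K
    by_cases h1 : (G.induce K).Connected ∧ Disjoint K L
    · obtain ⟨N, hN⟩ := hN K h1.1 h1.2
      refine ⟨N, fun _ _ => ⟨hN.ne, hN.sub, fun i a ha b hb => ?_, hN.att⟩⟩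
      rw [h'1 a (hN.sub i ha), h'1 b (hN.sub i hb)]
      exact hN.iso i a ha b hb
    · exact ⟨fun _ => ∅, fun h2 h3 => absurd ⟨h2, h3⟩ h1⟩
  choose N hN'' using hN'
  obtain ⟨κ, hκ, w, π, hw, hw1, hπ1, hπ2, hπ3, hπ4⟩ := exists_retr hc hℓ (P := L) h'2
    (N := fun u => N (compSet G L u))
    (fun u hu => hN'' _ (comp_connected hu) (Set.disjoint_left.2 fun a ha => ReachOff.right ha))
    (fun u v hu hv huv => by
      have e : compSet G L u = compSet G L v := by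
        have h1 : ReachOff G L u v := ReachOff.adj hu hv huv
        ext z
        exact ⟨fun hz => ReachOff.trans h1.symm hz, fun hz => ReachOff.trans h1 hz⟩
      show N (compSet G L u) = N (compSet G L v)
      rw [e]) hν0
  obtain ⟨ρ, hρL, hρ1, hρ2, -⟩ := hE.toL1S
  have hρI : IsL1 ρ := hρL.isL1
  have hK : 0 < 21 * C := by linarith
  refine ⟨fun x y => ∑ i, w i * (1 / (21 * C) * ρ ⟨π i x, hπ1 i x⟩ ⟨π i y, hπ1 i y⟩), ?_, ?_, ?_⟩
  · exact IsL1.sum Finset.univ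
      (fun i x y => w i * (1 / (21 * C) * ρ ⟨π i x, hπ1 i x⟩ ⟨π i y, hπ1 i y⟩))
      fun i _ => ((hρI.comap (fun x => (⟨π i x, hπ1 i x⟩ : L))).smul (by positivity)).smul (hw i)
  · intro u v huv
    have h1 : ∑ i, w i * (1 / (21 * C) * ρ ⟨π i u, hπ1 i u⟩ ⟨π i v, hπ1 i v⟩) ≤
        ∑ i, (1 / 21) * (w i * pathDist G ℓ (π i u) (π i v)) := by
      refine Finset.sum_le_sum fun i _ => ?_
      have h2 := hρ2 ⟨π i u, hπ1 i u⟩ ⟨π i v, hπ1 i v⟩
      have h3 : 1 / (21 * C) * ρ ⟨π i u, hπ1 i u⟩ ⟨π i v, hπ1 i v⟩ ≤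
          1 / 21 * pathDist G ℓ (π i u) (π i v) := by
        rw [div_mul_eq_mul_div, one_mul, div_le_iff₀ hK]
        have h4 : 1 / 21 * pathDist G ℓ (π i u) (π i v) * (21 * C) =
            C * pathDist G ℓ (π i u) (π i v) := by ring
        rw [h4]
        exact h2
      have := mul_le_mul_of_nonneg_left h3 (hw i)
      linarith
    rw [← Finset.mul_sum] at h1
    have h2 := hπ3 u v huv
    linarith
  · intro ν hν x y δ hδ hx hy hxy
    have hx' : pathDist G ℓ x (ν0 x) ≤ δ := (hν0.le x (ν x) (hν.mem x)).trans hx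
    have hy' : pathDist G ℓ y (ν0 y) ≤ 5 / 4 * δ := (hν0.le y (ν y) (hν.mem y)).trans hy
    have h1 : ∑ i, 1 / (21 * C) * (w i * (pathDist G ℓ x y - pathDist G ℓ x (π i x) -
        pathDist G ℓ y (π i y))) ≤
        ∑ i, w i * (1 / (21 * C) * ρ ⟨π i x, hπ1 i x⟩ ⟨π i y, hπ1 i y⟩) := by
      refine Finset.sum_le_sum fun i _ => ?_
      have h2 := hρ1 ⟨π i x, hπ1 i x⟩ ⟨π i y, hπ1 i y⟩
      have h3 := hd.tri x (π i x) y
      have h4 := hd.tri (π i x) (π i y) y
      rw [hd.symm (π i y) y] at h4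
      have h2' : pathDist G ℓ (π i x) (π i y) ≤ ρ ⟨π i x, hπ1 i x⟩ ⟨π i y, hπ1 i y⟩ := h2
      have h5 : pathDist G ℓ x y - pathDist G ℓ x (π i x) - pathDist G ℓ y (π i y) ≤
          ρ ⟨π i x, hπ1 i x⟩ ⟨π i y, hπ1 i y⟩ := by linarith
      have h6 : 0 ≤ 1 / (21 * C) := by positivity
      calc 1 / (21 * C) * (w i * (pathDist G ℓ x y - pathDist G ℓ x (π i x) -
          pathDist G ℓ y (π i y))) = w i * (1 / (21 * C) * (pathDist G ℓ x y -
          pathDist G ℓ x (π i x) - pathDist G ℓ y (π i y))) := by ring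
        _ ≤ _ := mul_le_mul_of_nonneg_left (mul_le_mul_of_nonneg_left h5 h6) (hw i)
    rw [← Finset.mul_sum] at h1
    have h2 : ∑ i, w i * (pathDist G ℓ x y - pathDist G ℓ x (π i x) - pathDist G ℓ y (π i y)) =
        pathDist G ℓ x y - ∑ i, w i * pathDist G ℓ x (π i x) -
          ∑ i, w i * pathDist G ℓ y (π i y) := by
      have e : ∀ i, w i * (pathDist G ℓ x y - pathDist G ℓ x (π i x) - pathDist G ℓ y (π i y)) =
          w i * pathDist G ℓ x y - w i * pathDist G ℓ x (π i x) -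
            w i * pathDist G ℓ y (π i y) := fun i => by ring
      rw [Finset.sum_congr rfl fun i _ => e i, Finset.sum_sub_distrib, Finset.sum_sub_distrib,
        ← Finset.sum_mul, hw1, one_mul]
    rw [h2] at h1
    have h3 := hπ4 x
    have h4 := hπ4 y
    have h5 : δ / 2 ≤ pathDist G ℓ x y - ∑ i, w i * pathDist G ℓ x (π i x) -
          ∑ i, w i * pathDist G ℓ y (π i y) := by linarith
    have h6 : 0 ≤ 1 / (21 * C) := by positivity
    have h7 := (mul_le_mul_of_nonneg_left h5 h6).trans h1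
    have h8 := mul_le_mul_of_nonneg_left h7 (by linarith : (0 : ℝ) ≤ 84 * C)
    have h9 : 84 * C * (1 / (21 * C) * (δ / 2)) = 2 * δ := by
      field_simp
      norm_num
    rw [h9] at h8
    exact h8

/-- **the step for tight sets** -/
theorem stepT {C : ℝ} (hC : 1 ≤ C) (hM : Red.MStarLL C) :
    H686.StepT (84 * (219073 * 96 * C * 9)) := by
  intro V _ G σ ℓ h L B₁ B₂ hc hP hℓ hB hT
  have hE := Quo.terminals hC hM V G σ ℓ h L B₁ B₂ 1 le_rfl hc hP hℓ hB hT.lip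
    (fun v hv hvB => by
      obtain ⟨u, hu, ha, he⟩ := hT.low v hv hvB
      exact ⟨u, hu, ha, by rw [he, one_mul]⟩)
    (fun v hv hvB => by
      obtain ⟨u, hu, ha, he⟩ := hT.high v hv hvB
      exact ⟨u, hu, ha, by rw [he, one_mul]⟩)
  have hl0 : (0 : ℝ) ≤ ((Red.ll (Nat.card V) : ℕ) : ℝ) := Nat.cast_nonneg _
  obtain ⟨F, hF1, hF2, hF3⟩ := near_of_lanes hc hℓ hT.ne hT.lip
    (fun K hK hKL => Vale.Agent.P235.RT.rowTwo V G σ ℓ h L B₁ B₂ hc hP hℓ hB hT K hK hKL)
    (by positivity) hE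
  refine ⟨F, hF1, hF2, fun ν hν x y δ hδ hx hy hxy => (hF3 ν hν x y δ hδ hx hy hxy).trans ?_⟩
  refine mul_le_mul_of_nonneg_right ?_ (hF1.nonneg _ _)
  have hC0 : 0 ≤ C := by linarith
  nlinarith

end Vale.Agent.P235.H643
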