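import Vale.Agent.P235.R2.H341.KrSpec
import Vale.Agent.P235.R2.H643.StepT

/-!
# Row K5: the step which deletes an arbitrary set, graphs without a `K_r` minor (helper643)
-/

set_option autoImplicit false
set_option linter.all false

namespace Vale.Agent.P235.Kr

open Finset Vale.Agent.P235

/-- the map for the pairs near `X` from a random retraction -/
theorem near_of_retr {V : Type} [Finite V] {G : SimpleGraph V} {ℓ : Sym2 V → ℝ}
    (hc : G.Connected) (hℓ : ∀ e ∈ G.edgeSet, 0 < ℓ e) {X : Set V} {B E : ℝ} (hX : X.Nonempty)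
    (hB : 1 ≤ B) (hE0 : 0 < E) (hE : EmbedsL1 (fun u v : X => pathDist G ℓ u v) B) {ν0 : V → V}
    (hν0 : Near G ℓ X ν0)
    (hR : ∃ (ι : Type) (_ : Fintype ι) (w : ι → ℝ) (π : ι → V → V), (∀ i, 0 ≤ w i) ∧
      ∑ i, w i = 1 ∧ (∀ i v, π i v ∈ X) ∧
      (∀ u v, G.Adj u v → ∑ i, w i * pathDist G ℓ (π i u) (π i v) ≤ E * ℓ s(u, v)) ∧
      ∀ i v, pathDist G ℓ v (π i v) ≤ 3 * pathDist G ℓ v (ν0 v)) :
    ∃ F : V → V → ℝ, IsL1 F ∧ (∀ u v, G.Adj u v → F u v ≤ ℓ s(u, v)) ∧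
      ∀ ν : V → V, Near G ℓ X ν → ∀ x y δ, 0 < δ → pathDist G ℓ x (ν x) ≤ δ →
        pathDist G ℓ y (ν y) ≤ 5 / 4 * δ → 8 * δ ≤ pathDist G ℓ x y →
        2 * δ ≤ 2 * E * B * F x y := by
  classical
  have hd := pathDist_isMet hc hℓ
  obtain ⟨ι, hι, w, π, hw, hw1, hπ1, hπ2, hπ3⟩ := hR
  obtain ⟨ρ, hρL, hρ1, hρ2, -⟩ := hE.toL1S
  have hρI : IsL1 ρ := hρL.isL1
  have hB0 : 0 < B := by linarith
  have hK : 0 < E * B := mul_pos hE0 hB0
  refine ⟨fun x y => ∑ i, w i * (1 / (E * B) * ρ ⟨π i x, hπ1 i x⟩ ⟨π i y, hπ1 i y⟩), ?_, ?_, ?_⟩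
  · exact IsL1.sum Finset.univ
      (fun i x y => w i * (1 / (E * B) * ρ ⟨π i x, hπ1 i x⟩ ⟨π i y, hπ1 i y⟩))
      fun i _ => ((hρI.comap (fun x => (⟨π i x, hπ1 i x⟩ : X))).smul (by positivity)).smul (hw i)
  · intro u v huv
    have h1 : ∑ i, w i * (1 / (E * B) * ρ ⟨π i u, hπ1 i u⟩ ⟨π i v, hπ1 i v⟩) ≤
        ∑ i, (1 / E) * (w i * pathDist G ℓ (π i u) (π i v)) := by
      refine Finset.sum_le_sum fun i _ => ?_
      have h2 := hρ2 ⟨π i u, hπ1 i u⟩ ⟨π i v, hπ1 i v⟩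
      have h3 : 1 / (E * B) * ρ ⟨π i u, hπ1 i u⟩ ⟨π i v, hπ1 i v⟩ ≤
          1 / E * pathDist G ℓ (π i u) (π i v) := by
        rw [div_mul_eq_mul_div, one_mul, div_le_iff₀ hK]
        have h4 : 1 / E * pathDist G ℓ (π i u) (π i v) * (E * B) =
            B * pathDist G ℓ (π i u) (π i v) := by
          field_simp
        rw [h4]
        exact h2
      have := mul_le_mul_of_nonneg_left h3 (hw i)
      linarith
    rw [← Finset.mul_sum] at h1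
    have h2 := mul_le_mul_of_nonneg_left (hπ2 u v huv) (by positivity : (0 : ℝ) ≤ 1 / E)
    have h3 : 1 / E * (E * ℓ s(u, v)) = ℓ s(u, v) := by
      field_simp
    rw [h3] at h2
    exact h1.trans h2
  · intro ν hν x y δ hδ hx hy hxy
    have hx' : pathDist G ℓ x (ν0 x) ≤ δ := (hν0.le x (ν x) (hν.mem x)).trans hx
    have hy' : pathDist G ℓ y (ν0 y) ≤ 5 / 4 * δ := (hν0.le y (ν y) (hν.mem y)).trans hy
    have h6 : 0 ≤ 1 / (E * B) := by positivity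
    have h1 : ∑ i, w i * (1 / (E * B) * (5 / 4 * δ)) ≤
        ∑ i, w i * (1 / (E * B) * ρ ⟨π i x, hπ1 i x⟩ ⟨π i y, hπ1 i y⟩) := by
      refine Finset.sum_le_sum fun i _ => ?_
      have h2 := hρ1 ⟨π i x, hπ1 i x⟩ ⟨π i y, hπ1 i y⟩
      have h2' : pathDist G ℓ (π i x) (π i y) ≤ ρ ⟨π i x, hπ1 i x⟩ ⟨π i y, hπ1 i y⟩ := h2
      have h3 := hd.tri x (π i x) y
      have h4 := hd.tri (π i x) (π i y) y
      rw [hd.symm (π i y) y] at h4
      have h7 := hπ3 i x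
      have h8 := hπ3 i y
      have h5 : 5 / 4 * δ ≤ ρ ⟨π i x, hπ1 i x⟩ ⟨π i y, hπ1 i y⟩ := by linarith
      exact mul_le_mul_of_nonneg_left (mul_le_mul_of_nonneg_left h5 h6) (hw i)
    rw [← Finset.sum_mul, hw1, one_mul] at h1
    have h8 := mul_le_mul_of_nonneg_left h1 (by positivity : (0 : ℝ) ≤ 2 * E * B)
    have h9 : 2 * E * B * (1 / (E * B) * (5 / 4 * δ)) = 5 / 2 * δ := by
      field_simp
      norm_num
    rw [h9] at h8
    linarith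

theorem rowK5 (h4 : RowK4) : RowK5 := by
  intro V _ G ℓ r hc hK hℓ X B hX hB hE
  obtain ⟨ν0, hν0⟩ := exists_near (X := X) hc hℓ hX
  obtain ⟨F, h1, h2, h3⟩ := near_of_retr hc hℓ (E := 200 * ((r : ℝ) + 2) ^ 3) hX hB (by positivity)
    hE hν0 (h4 V G ℓ r hc hK hℓ X ν0 hν0)
  refine ⟨F, h1, h2, fun ν hν x y δ hδ hx hy hxy => ?_⟩
  have h4 := h3 ν hν x y δ hδ hx hy hxy
  have e : 2 * (200 * ((r : ℝ) + 2) ^ 3) * B * F x y = 400 * ((r : ℝ) + 2) ^ 3 * B * F x y := by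
    ring
  rw [e] at h4
  exact h4

end Vale.Agent.P235.Kr
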