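import Mathlib.Data.Finset.Max
import Mathlib.Data.Finset.Card
import Mathlib.Tactic.Linarith
import Mathlib.Tactic.Tauto

/-!
# Dilworth's theorem for width two (helper643)
-/

set_option autoImplicit false
set_option linter.all false

namespace Vale.Agent.P235.H643

/-- pairwise comparable -/
def Chain' {α : Type} (le : α → α → Prop) (A : Finset α) : Prop :=
  ∀ a ∈ A, ∀ b ∈ A, le a b ∨ le b a

/-- no three pairwise incomparable elements -/
def W2 {α : Type} (le : α → α → Prop) (N : Finset α) : Prop :=
  ∀ a ∈ N, ∀ b ∈ N, ∀ c ∈ N, le a b ∨ le b a ∨ le a c ∨ le c a ∨ le b c ∨ le c b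

theorem exists_maximal' {α : Type} {le : α → α → Prop}
    (ht : ∀ a b c, le a b → le b c → le a c) (ha : ∀ a b, le a b → le b a → a = b)
    {N : Finset α} (hN : N.Nonempty) : ∃ m ∈ N, ∀ x ∈ N, le m x → x = m := by
  classical
  induction hN using Finset.Nonempty.cons_induction with
  | singleton a => exact ⟨a, Finset.mem_singleton_self a, fun x hx _ => Finset.mem_singleton.1 hx⟩
  | cons a s has hs ih =>
    obtain ⟨m, hm, h⟩ := ih
    by_cases hma : le m a
    · refine ⟨a, Finset.mem_cons_self a s, fun x hx hax => ?_⟩
      rcases Finset.mem_cons.1 hx with rfl | hx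
      · rfl
      · have h1 := h x hx (ht _ _ _ hma hax)
        subst h1
        exact ha _ _ hma hax
    · refine ⟨m, Finset.mem_cons_of_mem hm, fun x hx hmx => ?_⟩
      rcases Finset.mem_cons.1 hx with rfl | hx
      · exact absurd hmx hma
      · exact h x hx hmx

/-- Dilworth's theorem for posets without three pairwise incomparable elements -/
theorem dilworth2 {α : Type} [DecidableEq α] {le : α → α → Prop} (hr : ∀ a, le a a)
    (ht : ∀ a b c, le a b → le b c → le a c) (ha : ∀ a b, le a b → le b a → a = b) :
    ∀ (n : ℕ) (N : Finset α), N.card ≤ n → W2 le N →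
      ∃ A B : Finset α, A ∪ B = N ∧ Chain' le A ∧ Chain' le B := by
  classical
  intro n
  induction n with
  | zero =>
    intro N hN _
    have : N = ∅ := Finset.card_eq_zero.1 (Nat.le_zero.1 hN)
    subst this
    exact ⟨∅, ∅, by simp, fun a h => absurd h (by simp), fun a h => absurd h (by simp)⟩
  | succ n ih =>
    intro N hN hW
    rcases N.eq_empty_or_nonempty with rfl | hne
    · exact ⟨∅, ∅, by simp, fun a h => absurd h (by simp), fun a h => absurd h (by simp)⟩
    obtain ⟨m, hm, hmax⟩ := exists_maximal' ht ha hne
    have hcard : (N.erase m).card ≤ n := by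
      rw [Finset.card_erase_of_mem hm]
      omega
    have hW' : W2 le (N.erase m) := fun a ha b hb c hc =>
      hW a (Finset.mem_of_mem_erase ha) b (Finset.mem_of_mem_erase hb) c (Finset.mem_of_mem_erase hc)
    obtain ⟨A, B, hAB, hA, hB⟩ := ih _ hcard hW'
    have hAN : ∀ a ∈ A, a ∈ N := fun a h => Finset.mem_of_mem_erase (hAB ▸ Finset.mem_union_left B h)
    have hBN : ∀ a ∈ B, a ∈ N := fun a h => Finset.mem_of_mem_erase (hAB ▸ Finset.mem_union_right A h)
    have hN' : ∀ x ∈ N, x = m ∨ x ∈ A ∨ x ∈ B := by
      intro x hx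
      by_cases hxm : x = m
      · exact Or.inl hxm
      · have : x ∈ A ∪ B := hAB ▸ Finset.mem_erase.2 ⟨hxm, hx⟩
        exact Or.inr (Finset.mem_union.1 this)
    -- elements of `A` incomparable with some element of `B`
    let IA : Finset α := A.filter fun a => ∃ b ∈ B, ¬ le a b ∧ ¬ le b a
    let IB : Finset α := B.filter fun b => ∃ a ∈ A, ¬ le a b ∧ ¬ le b a
    rcases IA.eq_empty_or_nonempty with hIA | hIA
    · -- everything is comparable: `A ∪ B` is a chain
      refine ⟨A ∪ B, {m}, ?_, ?_, ?_⟩
      · rw [hAB]
        ext x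
        simp only [Finset.mem_union, Finset.mem_erase, Finset.mem_singleton]
        constructor
        · rintro (h | rfl)
          · exact h.2
          · exact hm
        · intro h
          by_cases hxm : x = m
          · exact Or.inr hxm
          · exact Or.inl ⟨hxm, h⟩
      · have hcmp : ∀ a ∈ A, ∀ b ∈ B, le a b ∨ le b a := by
          intro a haA b hbB
          by_contra hcon
          push Not at hcon
          have : a ∈ IA := Finset.mem_filter.2 ⟨haA, b, hbB, hcon.1, hcon.2⟩
          rw [hIA] at this
          exact absurd this (by simp)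
        intro x hx y hy
        rcases Finset.mem_union.1 hx with hx | hx <;> rcases Finset.mem_union.1 hy with hy | hy
        · exact hA x hx y hy
        · exact hcmp x hx y hy
        · exact (hcmp y hy x hx).symm
        · exact hB x hx y hy
      · intro a h b h'
        rw [Finset.mem_singleton.1 h, Finset.mem_singleton.1 h']
        exact Or.inl (hr m)
    · have hIB : IB.Nonempty := by
        obtain ⟨a, h⟩ := hIA
        obtain ⟨haA, b, hbB, h1, h2⟩ := Finset.mem_filter.1 h
        exact ⟨b, Finset.mem_filter.2 ⟨hbB, a, haA, h1, h2⟩⟩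
      -- the largest ones
      obtain ⟨a0, ha0, ha0m⟩ := exists_maximal' ht ha hIA
      obtain ⟨b0, hb0, hb0m⟩ := exists_maximal' ht ha hIB
      obtain ⟨ha0A, b1, hb1B, h01, h10⟩ := Finset.mem_filter.1 ha0
      obtain ⟨hb0B, a1, ha1A, h11, h11'⟩ := Finset.mem_filter.1 hb0
      have hb1 : b1 ∈ IB := Finset.mem_filter.2 ⟨hb1B, a0, ha0A, h01, h10⟩
      have ha1 : a1 ∈ IA := Finset.mem_filter.2 ⟨ha1A, b0, hb0B, h11, h11'⟩
      have hAle : ∀ a ∈ IA, le a a0 := by
        intro a haI
        rcases hA a (Finset.mem_filter.1 haI).1 a0 ha0A with h | h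
        · exact h
        · rw [ha0m a haI h]
          exact hr a0
      have hBle : ∀ b ∈ IB, le b b0 := by
        intro b hbI
        rcases hB b (Finset.mem_filter.1 hbI).1 b0 hb0B with h | h
        · exact h
        · rw [hb0m b hbI h]
          exact hr b0
      -- `a0` and `b0` are incomparable
      have hinc1 : ¬ le a0 b0 := fun h => h11 (ht _ _ _ (hAle a1 ha1) h)
      have hinc2 : ¬ le b0 a0 := fun h => h10 (ht _ _ _ (hBle b1 hb1) h)
      have hma : ¬ le m a0 := by
        intro h
        have h1 := hmax a0 (hAN a0 ha0A) h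
        have h2 : a0 ∈ N.erase m := hAB ▸ Finset.mem_union_left B ha0A
        exact (Finset.mem_erase.1 h2).1 h1
      have hmb : ¬ le m b0 := by
        intro h
        have h1 := hmax b0 (hBN b0 hb0B) h
        have h2 : b0 ∈ N.erase m := hAB ▸ Finset.mem_union_right A hb0B
        exact (Finset.mem_erase.1 h2).1 h1
      have hcase : le a0 m ∨ le b0 m := by
        have := hW a0 (hAN a0 ha0A) b0 (hBN b0 hb0B) m hm
        tauto
      -- main construction, symmetric in `A`, `B`
      have main : ∀ (A B : Finset α), (∀ a ∈ A, a ∈ N) → (∀ a ∈ B, a ∈ N) →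
          (∀ x ∈ N, x = m ∨ x ∈ A ∨ x ∈ B) → Chain' le A → Chain' le B → ∀ a0 ∈ A,
          le a0 m → (∀ a ∈ A, ¬ le a a0 → ∀ b ∈ B, le a b ∨ le b a) →
          ∃ A B : Finset α, A ∪ B = N ∧ Chain' le A ∧ Chain' le B := by
        intro A B hAN hBN hN' hA hB a0 ha0A ham hcmp
        let K : Finset α := insert m (A.filter fun a => le a a0)
        refine ⟨K, N \ K, ?_, ?_, ?_⟩
        · rw [Finset.union_sdiff_of_subset]
          intro x hx
          rcases Finset.mem_insert.1 hx with rfl | hx
          · exact hm
          · exact hAN x (Finset.mem_filter.1 hx).1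
        · intro x hx y hy
          rcases Finset.mem_insert.1 hx with hx' | hx' <;> rcases Finset.mem_insert.1 hy with hy' | hy'
          · rw [hx', hy']; exact Or.inl (hr _)
          · rw [hx']; exact Or.inr (ht _ _ _ (Finset.mem_filter.1 hy').2 ham)
          · rw [hy']; exact Or.inl (ht _ _ _ (Finset.mem_filter.1 hx').2 ham)
          · exact hA x (Finset.mem_filter.1 hx').1 y (Finset.mem_filter.1 hy').1
        · have hcls : ∀ x ∈ N \ K, (x ∈ A ∧ ¬ le x a0) ∨ x ∈ B := by
            intro x hx
            obtain ⟨hxN, hxK⟩ := Finset.mem_sdiff.1 hx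
            rcases hN' x hxN with rfl | h | h
            · exact absurd (Finset.mem_insert_self _ _) hxK
            · by_cases hx0 : le x a0
              · exact absurd (Finset.mem_insert_of_mem (Finset.mem_filter.2 ⟨h, hx0⟩)) hxK
              · exact Or.inl ⟨h, hx0⟩
            · exact Or.inr h
          intro x hx y hy
          rcases hcls x hx with h | h <;> rcases hcls y hy with h' | h'
          · exact hA x h.1 y h'.1
          · exact hcmp x h.1 h.2 y h'
          · exact (hcmp y h'.1 h'.2 x h).symm
          · exact hB x h y h'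
      rcases hcase with h | h
      · refine main A B hAN hBN hN' hA hB a0 ha0A h ?_
        intro a haA hna b hbB
        by_contra hcon
        push Not at hcon
        exact hna (hAle a (Finset.mem_filter.2 ⟨haA, b, hbB, hcon.1, hcon.2⟩))
      · refine main B A hBN hAN (fun x hx => ?_) hB hA b0 hb0B h ?_
        · rcases hN' x hx with h | h | h
          · exact Or.inl h
          · exact Or.inr (Or.inr h)
          · exact Or.inr (Or.inl h)
        · intro b hbB hnb a haA
          by_contra hcon
          push Not at hcon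
          exact hnb (hBle b (Finset.mem_filter.2 ⟨hbB, a, haA, hcon.2, hcon.1⟩))

/-- Dilworth's theorem for width two, with two nonempty chains -/
theorem dilworth2' {α : Type} {le : α → α → Prop} (hr : ∀ a, le a a)
    (ht : ∀ a b c, le a b → le b c → le a c) (ha : ∀ a b, le a b → le b a → a = b)
    (N : Finset α) (hne : N.Nonempty) (hW : W2 le N) :
      ∃ A B : Finset α, A.Nonempty ∧ B.Nonempty ∧ (∀ x, x ∈ N ↔ x ∈ A ∨ x ∈ B) ∧
        Chain' le A ∧ Chain' le B := by
  classical
  obtain ⟨A, B, hAB, hA, hB⟩ := dilworth2 hr ht ha N.card N le_rfl hW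
  rcases A.eq_empty_or_nonempty with rfl | hAne
  · have hBN : B = N := by simpa using hAB
    subst hBN
    exact ⟨B, B, hne, hne, fun x => by tauto, hB, hB⟩
  · rcases B.eq_empty_or_nonempty with rfl | hBne
    · have hAN : A = N := by simpa using hAB
      subst hAN
      exact ⟨A, A, hne, hne, fun x => by tauto, hA, hA⟩
    · exact ⟨A, B, hAne, hBne, fun x => by rw [← hAB, Finset.mem_union], hA, hB⟩

end Vale.Agent.P235.H643
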