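import Vale.Agent.P235.R2.H643.Unif
import Vale.Agent.P235.R2.H899.RtDefs

/-!
# Random retraction onto a set whose components are attached to two lanes (helper643)
-/

set_option autoImplicit false
set_option linter.all false

namespace Vale.Agent.P235.H643

open Finset Vale.Agent.P235 Vale.Agent.P235.R2.H899

/-- lane data -/
structure LaneD {V : Type} (h : V → ℝ) (A : Set V) (lo hi : ℝ → V) (g : ℝ → ℝ) : Prop where
  lo_mem : ∀ u, lo u ∈ A
  hi_mem : ∀ u, hi u ∈ A
  g01 : ∀ u, 0 ≤ g u ∧ g u ≤ 1
  disp : ∀ u, ∀ a ∈ A, (1 - g u) * |h (lo u) - u| + g u * |h (hi u) - u| ≤ 17 / 16 * |h a - u|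
  lip : ∀ (S : Finset ℝ) (ι : Type) (_ : Fintype ι) (w : ι → ℝ) (c : ι → ℝ → Bool), Unif S w c →
    ∀ u u', g u ∈ S → g u' ∈ S →
    ∑ i, w i * |h (if c i (g u) then hi u else lo u) - h (if c i (g u') then hi u' else lo u')|
      ≤ 5 * |u - u'|

theorem exists_laneD {V : Type} [Finite V] (h : V → ℝ) (v0 : V) (A : Set V) :
    ∃ (lo hi : ℝ → V) (g : ℝ → ℝ), A.Nonempty → LaneD h A lo hi g := by
  by_cases hA : A.Nonempty
  · obtain ⟨lo, hi, g, h1, h2, h3, h4, h5⟩ := exists_lane hA h
    exact ⟨lo, hi, g, fun _ => ⟨h1, h2, h3, h4, h5⟩⟩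
  · exact ⟨fun _ => v0, fun _ => v0, fun _ => 0, fun hh => absurd hh hA⟩

/-- **Random retraction.** -/
theorem exists_retr {V : Type} [Finite V] {G : SimpleGraph V} {ℓ : Sym2 V → ℝ} (hc : G.Connected)
    (hℓ : ∀ e ∈ G.edgeSet, 0 < ℓ e) {P : Set V} {h : V → ℝ}
    (hh : ∀ u v, |h u - h v| ≤ pathDist G ℓ u v) {N : V → Bool → Set V}
    (hN : ∀ u, u ∉ P → TwoLanes G ℓ h P (compSet G P u) (N u))
    (hNN : ∀ u v, u ∉ P → v ∉ P → G.Adj u v → N u = N v) {ν : V → V} (hν : Near G ℓ P ν) :
    ∃ (κ : Type) (_ : Fintype κ) (w : κ → ℝ) (π : κ → V → V), (∀ i, 0 ≤ w i) ∧ ∑ i, w i = 1 ∧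
      (∀ i v, π i v ∈ P) ∧ (∀ i, ∀ v ∈ P, π i v = v) ∧
      (∀ u v, G.Adj u v → ∑ i, w i * pathDist G ℓ (π i u) (π i v) ≤ 21 * ℓ s(u, v)) ∧
      ∀ v, ∑ i, w i * pathDist G ℓ v (π i v) ≤ 10 / 3 * pathDist G ℓ v (ν v) := by
  classical
  have := Fintype.ofFinite V
  have hd := pathDist_isMet hc hℓ
  obtain ⟨v0⟩ := hc.nonempty
  obtain ⟨d, hdd⟩ : ∃ d : V → V → ℝ, d = pathDist G ℓ := ⟨_, rfl⟩
  rw [← hdd] at hd hh ⊢
  have hadj : ∀ u v, G.Adj u v → d u v ≤ ℓ s(u, v) := fun u v huv => by
    rw [hdd]; exact pathDist_adj hℓ huv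
  choose lo hi g hlg using fun A : Set V => exists_laneD h v0 A
  have hnear : ∀ (A : Set V) (x : V), ∃ n, A.Nonempty → n ∈ A ∧ ∀ a ∈ A, d x n ≤ d x a := by
    intro A x
    by_cases hA : A.Nonempty
    · obtain ⟨n, hn, hn'⟩ := Set.exists_min_image A (fun a => d x a) (Set.toFinite _) hA
      exact ⟨n, fun _ => ⟨hn, hn'⟩⟩
    · exact ⟨v0, fun hh => absurd hh hA⟩
  choose n hn using hnear
  have hne : ∀ x, x ∉ P → ∀ b, (N x b).Nonempty := fun x hx b => (hN x hx).ne b
  obtain ⟨D, hD⟩ : ∃ D : Bool → V → ℝ, D = fun b x => d x (n (N x b) x) := ⟨_, rfl⟩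
  have hDe : ∀ b x, D b x = d x (n (N x b) x) := fun b x => by rw [hD]
  have hD0 : ∀ b x, 0 ≤ D b x := fun b x => by rw [hDe]; exact hd.nonneg _ _
  obtain ⟨gM, hgM⟩ : ∃ gM : V → ℝ, gM = fun x => plat (D false x / (D false x + D true x)) :=
    ⟨_, rfl⟩
  have hgMe : ∀ x, gM x = plat (D false x / (D false x + D true x)) := fun x => by rw [hgM]
  obtain ⟨gL, hgL⟩ : ∃ gL : Bool → V → ℝ, gL = fun b x => g (N x b) (h x) := ⟨_, rfl⟩
  have hgLe : ∀ b x, gL b x = g (N x b) (h x) := fun b x => by rw [hgL]
  obtain ⟨S, hSd⟩ : ∃ S : Finset ℝ, S = ((Finset.univ.image gM) ∪ ((Finset.univ.image (gL false)) ∪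
    (Finset.univ.image (gL true)))).filter (fun r => 0 ≤ r ∧ r ≤ 1) := ⟨_, rfl⟩
  have hMS : ∀ x, gM x ∈ S := by
    intro x
    rw [hSd, Finset.mem_filter]
    refine ⟨Finset.mem_union_left _ (Finset.mem_image_of_mem _ (Finset.mem_univ x)), ?_⟩
    rw [hgMe]
    exact ⟨plat_nonneg _, plat_le_one _⟩
  have hLS : ∀ b x, x ∉ P → gL b x ∈ S := by
    intro b x hx
    rw [hSd, Finset.mem_filter]
    constructor
    · refine Finset.mem_union_right _ ?_
      cases b
      · exact Finset.mem_union_left _ (Finset.mem_image_of_mem _ (Finset.mem_univ x))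
      · exact Finset.mem_union_right _ (Finset.mem_image_of_mem _ (Finset.mem_univ x))
    · rw [hgLe]
      exact (hlg _ (hne x hx b)).g01 _
  obtain ⟨ι, hι, w, c, hU⟩ := exists_unif S (by
    intro r hr
    rw [hSd, Finset.mem_filter] at hr
    exact hr.2)
  -- the lane points
  obtain ⟨lane, hlane⟩ : ∃ lane : Bool → ι → V → V, lane = fun b j x =>
    if c j (g (N x b) (h x)) then hi (N x b) (h x) else lo (N x b) (h x) := ⟨_, rfl⟩
  have hlanee : ∀ b j x, lane b j x =
    if c j (g (N x b) (h x)) then hi (N x b) (h x) else lo (N x b) (h x) := fun b j x => by rw [hlane]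
  have hlN : ∀ x, x ∉ P → ∀ b j, lane b j x ∈ N x b := by
    intro x hx b j
    rw [hlanee]
    split_ifs
    · exact (hlg _ (hne x hx b)).hi_mem _
    · exact (hlg _ (hne x hx b)).lo_mem _
  have hiso : ∀ x, x ∉ P → ∀ b, ∀ a ∈ N x b, ∀ a' ∈ N x b, d a a' ≤ |h a - h a'| := by
    intro x hx b a ha a' ha'
    rw [hdd]
    exact (hN x hx).iso b a ha a' ha'
  have hw : ∀ i, 0 ≤ w i := hU.nn
  -- displacement on one lane
  have hdisp : ∀ x, x ∉ P → ∀ b, ∑ j, w j * d x (lane b j x) ≤ 49 / 16 * D b x := by
    intro x hx b
    obtain ⟨hnm, hnmin⟩ := hn (N x b) x (hne x hx b)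
    have h1 : ∀ j, w j * d x (lane b j x) ≤ w j * (2 * D b x + |h (lane b j x) - h x|) := by
      intro j
      refine mul_le_mul_of_nonneg_left ?_ (hw j)
      have t1 := hd.tri x (n (N x b) x) (lane b j x)
      have t2 := hiso x hx b _ hnm _ (hlN x hx b j)
      have t3 := abs_sub_le (h (n (N x b) x)) (h x) (h (lane b j x))
      have t4 := hh (n (N x b) x) x
      rw [hd.symm] at t4
      rw [abs_sub_comm (h x) (h (lane b j x))] at t3
      have t5 := hDe b x
      linarith
    refine (Finset.sum_le_sum fun j _ => h1 j).trans ?_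
    have h2 : ∑ j, w j * (2 * D b x + |h (lane b j x) - h x|) =
        2 * D b x + ((1 - gL b x) * |h (lo (N x b) (h x)) - h x| +
          gL b x * |h (hi (N x b) (h x)) - h x|) := by
      have e1 := hU.exp (hLS b x hx)
        (fun t => 2 * D b x + |h (if t then hi (N x b) (h x) else lo (N x b) (h x)) - h x|)
      simp only [Bool.false_eq_true, if_false, if_true] at e1
      have e2 : ∑ j, w j * (2 * D b x + |h (lane b j x) - h x|) = ∑ j, w j *
          (2 * D b x + |h (if c j (gL b x) then hi (N x b) (h x) else lo (N x b) (h x)) - h x|) := by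
        refine Finset.sum_congr rfl fun j _ => ?_
        rw [hlanee, hgLe]
      rw [e2, e1]
      ring
    rw [h2]
    have h3 := (hlg _ (hne x hx b)).disp (h x) _ hnm
    rw [← hgLe] at h3
    have h4 := hh (n (N x b) x) x
    rw [hd.symm, ← hDe] at h4
    linarith
  have hprod : ∀ F : ι → ι → ℝ, ∑ p : ι × ι, w p.1 * w p.2 * F p.1 p.2 =
      ∑ i, w i * ∑ j, w j * F i j := by
    intro F
    rw [Fintype.sum_prod_type]
    refine Finset.sum_congr rfl fun i _ => ?_
    rw [Finset.mul_sum]
    exact Finset.sum_congr rfl fun j _ => by ring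
  -- displacement
  have hmain : ∀ x, x ∉ P → ∑ i, w i * ∑ j, w j * d x (lane (c i (gM x)) j x) ≤
      10 / 3 * d x (ν x) := by
    intro x hx
    have h1 : ∑ i, w i * ∑ j, w j * d x (lane (c i (gM x)) j x) ≤
        ∑ i, w i * (49 / 16 * D (c i (gM x)) x) :=
      Finset.sum_le_sum fun i _ => mul_le_mul_of_nonneg_left (hdisp x hx _) (hw i)
    rw [hU.exp (hMS x) (fun t => 49 / 16 * D t x)] at h1
    have h2 := plat_mix (hD0 false x) (hD0 true x)
    rw [← hgMe] at h2
    have h3 : min (D false x) (D true x) ≤ d x (ν x) := by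
      obtain ⟨ha, z, hz, hza⟩ := hν.att x hx
      obtain ⟨b, hb⟩ := (hN x hx).att z hz (ν x) ha hza
      have h4 := (hn (N x b) x (hne x hx b)).2 (ν x) hb
      rw [← hDe] at h4
      cases b
      · exact (min_le_left _ _).trans h4
      · exact (min_le_right _ _).trans h4
    have h5 : 0 ≤ min (D false x) (D true x) := le_min (hD0 _ _) (hD0 _ _)
    linarith
  refine ⟨ι × ι, inferInstance, fun p => w p.1 * w p.2, fun p x =>
    if x ∈ P then x else lane (c p.1 (gM x)) p.2 x, fun p => mul_nonneg (hw _) (hw _), ?_, ?_, ?_,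
    ?_, ?_⟩
  · have := hprod (fun _ _ => 1)
    simp only [mul_one] at this
    rw [this, hU.sum]
    simp only [mul_one]
    exact hU.sum
  · intro p v
    beta_reduce
    split_ifs with hv
    · exact hv
    · exact (hN v hv).sub _ (hlN v hv _ _)
  · intro p v hv
    beta_reduce
    rw [if_pos hv]
  · -- edges
    have hone : ∀ u v, u ∉ P → v ∈ P → G.Adj u v →
        ∑ p : ι × ι, w p.1 * w p.2 * d (if u ∈ P then u else lane (c p.1 (gM u)) p.2 u)
          (if v ∈ P then v else lane (c p.1 (gM v)) p.2 v) ≤ 21 * ℓ s(u, v) := by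
      intro u v hu hv huv
      have h1 := hmain u hu
      have h2 : d u (ν u) ≤ d u v := by
        rw [hdd]
        exact hν.le u v hv
      have h3 := hadj u v huv
      have h4 : ∑ p : ι × ι, w p.1 * w p.2 * d (if u ∈ P then u else lane (c p.1 (gM u)) p.2 u)
          (if v ∈ P then v else lane (c p.1 (gM v)) p.2 v) ≤
          ∑ p : ι × ι, w p.1 * w p.2 * (d u (lane (c p.1 (gM u)) p.2 u) + d u v) := by
        refine Finset.sum_le_sum fun p _ => mul_le_mul_of_nonneg_left ?_ (mul_nonneg (hw _) (hw _))
        rw [if_neg hu, if_pos hv]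
        have := hd.tri (lane (c p.1 (gM u)) p.2 u) u v
        rw [hd.symm _ u] at this
        exact this
      rw [hprod (fun i j => d u (lane (c i (gM u)) j u) + d u v)] at h4
      have h5 : ∑ i, w i * ∑ j, w j * (d u (lane (c i (gM u)) j u) + d u v) =
          ∑ i, w i * ∑ j, w j * d u (lane (c i (gM u)) j u) + d u v := by
        have e : ∀ i, w i * ∑ j, w j * (d u (lane (c i (gM u)) j u) + d u v) =
            w i * ∑ j, w j * d u (lane (c i (gM u)) j u) + w i * d u v := by
          intro i
          rw [← mul_add]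
          congr 1
          rw [← hU.const (d u v), ← Finset.sum_add_distrib]
          refine Finset.sum_congr rfl fun j _ => ?_
          rw [mul_add]
          congr 1
          rw [hU.const (d u v)]
        rw [Finset.sum_congr rfl fun i _ => e i, Finset.sum_add_distrib, hU.const]
      rw [h5] at h4
      have := hd.nonneg u v
      linarith
    intro u v huv
    beta_reduce
    by_cases hu : u ∈ P
    · by_cases hv : v ∈ P
      · have e := hprod (fun _ _ => d u v)
        rw [hU.const, hU.const] at e
        have e2 : ∑ p : ι × ι, w p.1 * w p.2 *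
            d (if u ∈ P then u else lane (c p.1 (gM u)) p.2 u)
              (if v ∈ P then v else lane (c p.1 (gM v)) p.2 v) =
            ∑ p : ι × ι, w p.1 * w p.2 * d u v := by
          refine Finset.sum_congr rfl fun p _ => ?_
          rw [if_pos hu, if_pos hv]
        rw [e2, e]
        have h3 := hadj u v huv
        have := hd.nonneg u v
        linarith
      · have h1 := hone v u hv hu huv.symm
        rw [Sym2.eq_swap] at h1
        refine le_trans (le_of_eq ?_) h1
        refine Finset.sum_congr rfl fun p _ => ?_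
        rw [hd.symm]
    · by_cases hv : v ∈ P
      · exact hone u v hu hv huv
      · -- both outside
        have hxy := hNN u v hu hv huv
        have hl0 : 0 ≤ ℓ s(u, v) := (hℓ _ (G.mem_edgeSet.mpr huv)).le
        have hduv := hadj u v huv
        have hXY : ∀ b, ∑ j, w j * d (lane b j u) (lane b j v) ≤ 5 * ℓ s(u, v) := by
          intro b
          have h1 : ∑ j, w j * d (lane b j u) (lane b j v) ≤
              ∑ j, w j * |h (lane b j u) - h (lane b j v)| := by
            refine Finset.sum_le_sum fun j _ => mul_le_mul_of_nonneg_left ?_ (hw j)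
            refine hiso u hu b _ (hlN u hu b j) _ ?_
            rw [hxy]
            exact hlN v hv b j
          refine h1.trans ?_
          have h2 := (hlg _ (hne u hu b)).lip S ι hι w c hU (h u) (h v)
            (by rw [← hgLe]; exact hLS b u hu) (by rw [hxy, ← hgLe]; exact hLS b v hv)
          have h3 : ∑ j, w j * |h (lane b j u) - h (lane b j v)| =
              ∑ j, w j * |h (if c j (g (N u b) (h u)) then hi (N u b) (h u) else lo (N u b) (h u)) -
                h (if c j (g (N u b) (h v)) then hi (N u b) (h v) else lo (N u b) (h v))| := by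
            refine Finset.sum_congr rfl fun j _ => ?_
            rw [hlanee, hlanee, hxy]
          rw [h3]
          refine h2.trans ?_
          have := (hh u v).trans hduv
          linarith
        have hYY : ∑ j, w j * (d (lane false j v) v + d v (lane true j v)) ≤
            49 / 16 * (D false v + D true v) := by
          have h1 := hdisp v hv false
          have h2 := hdisp v hv true
          have e : ∑ j, w j * (d (lane false j v) v + d v (lane true j v)) =
              ∑ j, w j * d v (lane false j v) + ∑ j, w j * d v (lane true j v) := by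
            rw [← Finset.sum_add_distrib]
            refine Finset.sum_congr rfl fun j _ => ?_
            rw [hd.symm (lane false j v) v]
            ring
          rw [e]
          linarith
        have hYn : ∀ j, 0 ≤ d (lane false j v) v + d v (lane true j v) := fun j =>
          add_nonneg (hd.nonneg _ _) (hd.nonneg _ _)
        have hpt : ∀ i j, d (lane (c i (gM u)) j u) (lane (c i (gM v)) j v) ≤
            d (lane (c i (gM u)) j u) (lane (c i (gM u)) j v) +
              (if c i (gM u) = c i (gM v) then 0 else 1) *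
                (d (lane false j v) v + d v (lane true j v)) := by
          intro i j
          cases h1 : c i (gM u) <;> cases h2 : c i (gM v)
          · simp
          · have t1 := hd.tri (lane false j u) (lane false j v) (lane true j v)
            have t2 := hd.tri (lane false j v) v (lane true j v)
            simp only [Bool.false_eq_true, if_false, one_mul]
            linarith
          · have t1 := hd.tri (lane true j u) (lane true j v) (lane false j v)
            have t2 := hd.tri (lane true j v) v (lane false j v)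
            have t3 := hd.symm (lane true j v) v
            have t4 := hd.symm v (lane false j v)
            simp only [Bool.true_eq_false, if_false, one_mul]
            linarith
          · simp
        have e2 : ∑ p : ι × ι, w p.1 * w p.2 *
            d (if u ∈ P then u else lane (c p.1 (gM u)) p.2 u)
              (if v ∈ P then v else lane (c p.1 (gM v)) p.2 v) =
            ∑ i, w i * ∑ j, w j * d (lane (c i (gM u)) j u) (lane (c i (gM v)) j v) := by
          rw [← hprod (fun i j => d (lane (c i (gM u)) j u) (lane (c i (gM v)) j v))]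
          refine Finset.sum_congr rfl fun p _ => ?_
          rw [if_neg hu, if_neg hv]
        rw [e2]
        have h6 : ∀ i, ∑ j, w j * d (lane (c i (gM u)) j u) (lane (c i (gM v)) j v) ≤
            5 * ℓ s(u, v) + (if c i (gM u) = c i (gM v) then 0 else 1) *
              (49 / 16 * (D false v + D true v)) := by
          intro i
          have h7 : ∑ j, w j * d (lane (c i (gM u)) j u) (lane (c i (gM v)) j v) ≤
              ∑ j, w j * d (lane (c i (gM u)) j u) (lane (c i (gM u)) j v) +
              (if c i (gM u) = c i (gM v) then 0 else 1) *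
                ∑ j, w j * (d (lane false j v) v + d v (lane true j v)) := by
            rw [Finset.mul_sum, ← Finset.sum_add_distrib]
            refine Finset.sum_le_sum fun j _ => ?_
            have := mul_le_mul_of_nonneg_left (hpt i j) (hw j)
            refine this.trans (le_of_eq ?_)
            ring
          refine h7.trans (add_le_add (hXY _) (mul_le_mul_of_nonneg_left hYY ?_))
          split_ifs <;> norm_num
        have h8 : ∑ i, w i * ∑ j, w j * d (lane (c i (gM u)) j u) (lane (c i (gM v)) j v) ≤
            5 * ℓ s(u, v) + |gM u - gM v| * (49 / 16 * (D false v + D true v)) := by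
          rw [← hU.two _ (hMS u) _ (hMS v), ← hU.const (5 * ℓ s(u, v)), Finset.sum_mul,
            ← Finset.sum_add_distrib]
          refine Finset.sum_le_sum fun i _ => ?_
          have := mul_le_mul_of_nonneg_left (h6 i) (hw i)
          refine this.trans (le_of_eq ?_)
          ring
        refine h8.trans ?_
        -- the mixing cost
        have hDl : ∀ b, |D b u - D b v| ≤ ℓ s(u, v) := by
          intro b
          have a1 := (hn (N u b) u (hne u hu b)).2 (n (N v b) v) (by
            rw [hxy]; exact (hn (N v b) v (hne v hv b)).1)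
          have a2 := (hn (N v b) v (hne v hv b)).2 (n (N u b) u) (by
            rw [← hxy]; exact (hn (N u b) u (hne u hu b)).1)
          rw [← hDe] at a1 a2
          have a3 := hd.tri u v (n (N v b) v)
          have a4 := hd.tri v u (n (N u b) u)
          rw [← hDe] at a3 a4
          rw [hd.symm v u] at a4
          rw [abs_le]
          constructor <;> linarith
        have h9 := ratio_lip (hD0 false u) (hD0 true u) (hD0 false v) (hD0 true v) (hDl false)
          (hDl true)
        have h10 : |gM u - gM v| ≤ 5 * |D false u / (D false u + D true u) -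
            D false v / (D false v + D true v)| := by
          rw [hgMe, hgMe]
          exact plat_lip _ _
        have h11 : 0 ≤ D false v + D true v := add_nonneg (hD0 _ _) (hD0 _ _)
        have h12 := mul_le_mul_of_nonneg_right h10 h11
        have h13 : |gM u - gM v| * (49 / 16 * (D false v + D true v)) =
            49 / 16 * (|gM u - gM v| * (D false v + D true v)) := by ring
        rw [h13]
        have h14 : 5 * |D false u / (D false u + D true u) -
            D false v / (D false v + D true v)| * (D false v + D true v) ≤ 5 * ℓ s(u, v) := by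
          rw [mul_assoc]
          exact mul_le_mul_of_nonneg_left h9 (by norm_num)
        linarith
  · intro v
    beta_reduce
    by_cases hv : v ∈ P
    · have e : ∑ p : ι × ι, w p.1 * w p.2 * d v (if v ∈ P then v else lane (c p.1 (gM v)) p.2 v) =
          0 := by
        refine Finset.sum_eq_zero fun p _ => ?_
        rw [if_pos hv, hd.self, mul_zero]
      rw [e]
      have := hd.nonneg v (ν v)
      positivity
    · have e : ∑ p : ι × ι, w p.1 * w p.2 * d v (if v ∈ P then v else lane (c p.1 (gM v)) p.2 v) =
          ∑ i, w i * ∑ j, w j * d v (lane (c i (gM v)) j v) := by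
        rw [← hprod (fun i j => d v (lane (c i (gM v)) j v))]
        refine Finset.sum_congr rfl fun p _ => ?_
        rw [if_neg hv]
      rw [e]
      exact hmain v hv

end Vale.Agent.P235.H643
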