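import Vale.Agent.P235.R2.H721.UniSpec

/-!
# Row Z3 of the union theorem (helper643)
-/

set_option autoImplicit false
set_option linter.all false

namespace Vale.Agent.P235.Kpr.H643

open Vale.Agent.P235 Vale.Agent.P235.H341W

theorem rowOne : RowOne := by
  intro V _ G ℓ hc hℓ g M F C ε hC hε hg hM hF hFl
  have hlp : ∀ u v, G.Adj u v → 0 < ℓ s(u, v) := fun u v h => hℓ _ ((G.mem_edgeSet).2 h)
  set K : V → ℝ := fun v => max 0 (M v - g v) with hK
  set H : V → ℝ := fun v => K v / 2 + ε with hH
  have hK0 : ∀ v, 0 ≤ K v := fun v => le_max_left _ _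
  have hH0 : ∀ v, 0 < H v := fun v => by
    have := hK0 v
    show 0 < K v / 2 + ε
    linarith
  have hKl : ∀ u v, G.Adj u v → |K u - K v| ≤ 2 * ℓ s(u, v) := by
    intro u v huv
    have h1 := abs_le.1 (hg u v huv)
    have h2 := abs_le.1 (hM u v huv)
    have h3 := abs_max_sub_max_le_abs (M u - g u) (M v - g v) 0
    have h4 : |K u - K v| ≤ |(M u - g u) - (M v - g v)| := by
      show |max 0 (M u - g u) - max 0 (M v - g v)| ≤ _
      rw [max_comm 0 (M u - g u), max_comm 0 (M v - g v)]
      exact h3
    refine h4.trans (abs_le.2 ⟨?_, ?_⟩) <;> linarith [h1.1, h1.2, h2.1, h2.2]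
  have hHl : ∀ u v, G.Adj u v → |H u - H v| ≤ ℓ s(u, v) := by
    intro u v huv
    have h1 := abs_le.1 (hKl u v huv)
    show |K u / 2 + ε - (K v / 2 + ε)| ≤ _
    rw [abs_le]
    constructor <;> linarith [h1.1, h1.2]
  set ρ : V → V → ℝ := fun u v => F u v + |g u - g v| with hρ
  have hρI : IsL1 ρ := hF.add (isL1_line g)
  obtain ⟨σ, s1, s2, s3, s4, s5⟩ := pointedD_of_L1 (C := C + 1) (ρ := ρ) (D := ρ) (by linarith) hc hℓ
    hH0 hHl hρI (fun u v huv => by
      have h1 := hFl u v huv
      have h2 := hg u v huv
      show F u v + |g u - g v| ≤ (C + 1) * ℓ s(u, v)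
      linarith) (fun u v => le_rfl)
  refine ⟨fun u v => σ (some u) (some v) + |K u - K v|,
    (s1.comap (some : V → Option V)).add (isL1_line K), ?_, ?_, ?_⟩
  · intro u v huv
    have h1 := s2 u v huv
    have h2 := hKl u v huv
    have h3 := hlp u v huv
    show σ (some u) (some v) + |K u - K v| ≤ _
    nlinarith
  · intro u v hu hv
    have h1 : K u = 0 := max_eq_left (by linarith)
    have h2 : K v = 0 := max_eq_left (by linarith)
    have h3 := s3 u
    have h4 := s3 v
    have h5 := s1.tri (some u) none (some v)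
    have h6 := s1.symm none (some v)
    show σ (some u) (some v) + |K u - K v| ≤ _
    rw [h1, h2, sub_zero, abs_zero, add_zero]
    have e1 : H u = ε := by show K u / 2 + ε = ε; rw [h1]; ring
    have e2 : H v = ε := by show K v / 2 + ε = ε; rw [h2]; ring
    rw [e1] at h3
    rw [e2] at h4
    nlinarith
  · intro x y δ hδ hx hMx hy
    have h0 := s1.nonneg (some x) (some y)
    have hKx : δ / 48 ≤ K x := le_trans (by linarith) (le_max_right 0 (M x - g x))
    show δ / 400000 ≤ σ (some x) (some y) + |K x - K y|
    by_cases hKy : K x / 2 ≤ K y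
    · have h1 : δ / 24 ≤ ρ x y := by
        show δ / 24 ≤ F x y + |g x - g y|
        by_cases hgy : g y ≤ δ / 12
        · have := hy hgy
          have := abs_nonneg (g x - g y)
          linarith
        · have h2 := neg_le_abs (g x - g y)
          have h3 := hF.nonneg x y
          push Not at hgy
          linarith
      have h2 := s5 x y (δ / 192) (by show δ / 192 ≤ K x / 2 + ε; linarith)
        (by show δ / 192 ≤ K y / 2 + ε; linarith) (by linarith)
      have := abs_nonneg (K x - K y)
      linarith
    · push Not at hKy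
      have h2 := le_abs_self (K x - K y)
      linarith

end Vale.Agent.P235.Kpr.H643
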