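import Vale.Agent.P235.Bdl.B1

/-!
# A finite uniform family of thresholds and the random rounding on one lane (helper643)
-/

set_option autoImplicit false
set_option linter.all false

namespace Vale.Agent.P235.H643

open Finset

/-- a finite family of `0-1` functions on `[0,1]` which behaves like uniform thresholds on `S` -/
structure Unif (S : Finset ℝ) {ι : Type} [Fintype ι] (w : ι → ℝ) (c : ι → ℝ → Bool) : Prop where
  nn : ∀ i, 0 ≤ w i
  sum : ∑ i, w i = 1
  one : ∀ g ∈ S, ∑ i, w i * (if c i g = true then 1 else 0) = g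
  two : ∀ g ∈ S, ∀ g' ∈ S, ∑ i, w i * (if c i g = c i g' then 0 else 1) = |g - g'|

theorem exists_unif (S : Finset ℝ) (hS : ∀ g ∈ S, 0 ≤ g ∧ g ≤ 1) :
    ∃ (ι : Type) (_ : Fintype ι) (w : ι → ℝ) (c : ι → ℝ → Bool), Unif S w c := by
  classical
  obtain ⟨ι, hι, w, c, hw, hc⟩ := real_line_cuts (insert 0 (insert 1 S))
  have h0 : (0 : ℝ) ∈ insert (0 : ℝ) (insert 1 S) := Finset.mem_insert_self _ _
  have h1 : (1 : ℝ) ∈ insert (0 : ℝ) (insert 1 S) :=
    Finset.mem_insert_of_mem (Finset.mem_insert_self _ _)
  have hg : ∀ g ∈ S, g ∈ insert (0 : ℝ) (insert 1 S) := fun g h =>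
    Finset.mem_insert_of_mem (Finset.mem_insert_of_mem h)
  -- cuts which do not separate `0` and `1` do not matter
  have hz : ∀ g ∈ S, ∀ i, c i 0 = c i 1 → w i * (if c i 0 = c i g then 0 else 1) = 0 := by
    intro g hgS
    have e : ∑ i, w i * ((if c i 0 = c i g then (0 : ℝ) else 1) + (if c i g = c i 1 then 0 else 1) -
        (if c i 0 = c i 1 then 0 else 1)) = 0 := by
      have e1 := hc 0 h0 g (hg g hgS)
      have e2 := hc g (hg g hgS) 1 h1
      have e3 := hc 0 h0 1 h1
      have : ∑ i, w i * ((if c i 0 = c i g then (0 : ℝ) else 1) + (if c i g = c i 1 then 0 else 1) -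
        (if c i 0 = c i 1 then 0 else 1)) = |0 - g| + |g - 1| - |(0 : ℝ) - 1| := by
        rw [e1, e2, e3, ← Finset.sum_add_distrib, ← Finset.sum_sub_distrib]
        exact Finset.sum_congr rfl fun i _ => by ring
      rw [this]
      obtain ⟨a, b⟩ := hS g hgS
      rw [zero_sub, abs_neg, abs_of_nonneg a, abs_of_nonpos (by linarith), zero_sub, abs_neg, abs_one]
      ring
    have hnn : ∀ i ∈ (Finset.univ : Finset ι), 0 ≤ w i * ((if c i 0 = c i g then (0 : ℝ) else 1) +
        (if c i g = c i 1 then 0 else 1) - (if c i 0 = c i 1 then 0 else 1)) := by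
      intro i _
      refine mul_nonneg (hw i) ?_
      cases c i 0 <;> cases c i g <;> cases c i 1 <;> norm_num
    have hall := (Finset.sum_eq_zero_iff_of_nonneg hnn).1 e
    intro i hi
    have h2 := hall i (Finset.mem_univ i)
    rw [← hi] at h2
    have h3 : (if c i g = c i 0 then (0 : ℝ) else 1) = (if c i 0 = c i g then 0 else 1) := by
      simp only [eq_comm]
    rw [h3] at h2
    simp only [if_true] at h2
    linarith
  refine ⟨ι, hι, fun i => if c i 0 = c i 1 then 0 else w i, fun i g => !(decide (c i 0 = c i g)),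
    ?_, ?_, ?_, ?_⟩
  · intro i
    beta_reduce
    split_ifs
    · exact le_rfl
    · exact hw i
  · have e3 := hc 0 h0 1 h1
    rw [zero_sub, abs_neg, abs_one] at e3
    refine Eq.trans ?_ e3.symm
    refine Finset.sum_congr rfl fun i _ => ?_
    beta_reduce
    split_ifs <;> ring
  · intro g hgS
    have e1 := hc 0 h0 g (hg g hgS)
    rw [zero_sub, abs_neg, abs_of_nonneg (hS g hgS).1] at e1
    refine Eq.trans ?_ e1.symm
    refine Finset.sum_congr rfl fun i _ => ?_
    beta_reduce
    by_cases h : c i 0 = c i 1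
    · rw [if_pos h, hz g hgS i h, zero_mul]
    · rw [if_neg h]
      by_cases h' : c i 0 = c i g
      · simp [h']
      · simp [h']
  · intro g hgS g' hgS'
    have e1 := hc g (hg g hgS) g' (hg g' hgS')
    refine Eq.trans ?_ e1.symm
    refine Finset.sum_congr rfl fun i _ => ?_
    beta_reduce
    by_cases h : c i 0 = c i 1
    · rw [if_pos h, zero_mul]
      have h2 := hz g hgS i h
      have h3 := hz g' hgS' i h
      by_cases hh : c i g = c i g'
      · rw [if_pos hh, mul_zero]
      · rw [if_neg hh, mul_one]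
        by_cases hk : c i 0 = c i g
        · have hk' : ¬ c i 0 = c i g' := fun e => hh (hk.symm.trans e)
          rw [if_neg hk', mul_one] at h3
          exact h3.symm
        · rw [if_neg hk, mul_one] at h2
          exact h2.symm
    · rw [if_neg h]
      congr 1
      cases c i 0 <;> cases c i g <;> cases c i g' <;> simp

namespace Unif

variable {S : Finset ℝ} {ι : Type} [Fintype ι] {w : ι → ℝ} {c : ι → ℝ → Bool}

theorem exp (H : Unif S w c) {g : ℝ} (hg : g ∈ S) (φ : Bool → ℝ) :
    ∑ i, w i * φ (c i g) = (1 - g) * φ false + g * φ true := by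
  have e : ∀ i, w i * φ (c i g) = w i * (if c i g = true then 1 else 0) * (φ true - φ false) +
      w i * φ false := by
    intro i
    cases c i g <;> simp
    ring
  rw [Finset.sum_congr rfl fun i _ => e i, Finset.sum_add_distrib, ← Finset.sum_mul,
    ← Finset.sum_mul, H.one g hg, H.sum]
  ring

theorem const (H : Unif S w c) (K : ℝ) : ∑ i, w i * K = K := by
  rw [← Finset.sum_mul, H.sum, one_mul]

end Unif

/-- plateau function -/
noncomputable def plat (t : ℝ) : ℝ := max 0 (min 1 (5 * t - 2))

theorem plat_nonneg (t : ℝ) : 0 ≤ plat t := le_max_left _ _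

theorem plat_le_one (t : ℝ) : plat t ≤ 1 := max_le zero_le_one (min_le_left _ _)

theorem plat_lip (s t : ℝ) : |plat s - plat t| ≤ 5 * |s - t| := by
  unfold plat
  refine (abs_max_sub_max_le_max _ _ _ _).trans (max_le ?_ ?_)
  · rw [sub_self, abs_zero]
    positivity
  · refine (abs_min_sub_min_le_max _ _ _ _).trans (max_le ?_ ?_)
    · rw [sub_self, abs_zero]
      positivity
    · rw [show 5 * s - 2 - (5 * t - 2) = 5 * (s - t) by ring, abs_mul, abs_of_pos (by norm_num : (0:ℝ) < 5)]

theorem plat_le {t : ℝ} (ht : 0 ≤ t) : plat t ≤ 5 * t :=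
  max_le (by linarith) ((min_le_right _ _).trans (by linarith))

theorem plat_ge {t : ℝ} (ht : t ≤ 1) : 1 - plat t ≤ 5 * (1 - t) := by
  have : min 1 (5 * t - 2) ≤ plat t := le_max_right _ _
  rcases le_total 1 (5 * t - 2) with h | h
  · rw [min_eq_left h] at this
    linarith
  · rw [min_eq_right h] at this
    linarith

theorem plat_core {t : ℝ} (h0 : 0 ≤ t) (h1 : t ≤ 1) :
    (1 - plat t) * t + plat t * (1 - t) ≤ 17 / 16 * min t (1 - t) := by
  have key : (1 - plat t) * t + plat t * (1 - t) ≤ 17 / 16 * t ∧
      (1 - plat t) * t + plat t * (1 - t) ≤ 17 / 16 * (1 - t) := by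
    unfold plat
    rcases le_total (5 * t - 2) 0 with h | h
    · rw [min_eq_right (by linarith), max_eq_left h]
      constructor <;> linarith
    · rcases le_total 1 (5 * t - 2) with h' | h'
      · rw [min_eq_left h', max_eq_right (by norm_num)]
        constructor <;> linarith
      · rw [min_eq_right h', max_eq_right h]
        constructor
        · nlinarith [sq_nonneg (t - 143 / 320)]
        · nlinarith [sq_nonneg (1 - t - 143 / 320)]
  rcases le_total t (1 - t) with h | h
  · rw [min_eq_left h]; exact key.1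
  · rw [min_eq_right h]; exact key.2

/-- the plateau of the ratio -/
theorem plat_mix {p q : ℝ} (hp : 0 ≤ p) (hq : 0 ≤ q) :
    (1 - plat (p / (p + q))) * p + plat (p / (p + q)) * q ≤ 17 / 16 * min p q := by
  rcases (add_nonneg hp hq).eq_or_lt with h | h
  · have hp0 : p = 0 := by linarith
    have hq0 : q = 0 := by linarith
    subst hp0 hq0
    simp
  · set t := p / (p + q) with ht
    have e1 : p = t * (p + q) := by rw [ht]; field_simp
    have e2 : q = (1 - t) * (p + q) := by rw [ht]; field_simp; ring
    have h0 : 0 ≤ t := div_nonneg hp h.le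
    have h1 : t ≤ 1 := by rw [ht, div_le_one h]; linarith
    have h2 := mul_le_mul_of_nonneg_right (plat_core h0 h1) h.le
    have e3 : min p q = min t (1 - t) * (p + q) := by
      rw [min_mul_of_nonneg _ _ h.le, ← e1, ← e2]
    calc (1 - plat t) * p + plat t * q
        = (1 - plat t) * (t * (p + q)) + plat t * ((1 - t) * (p + q)) := by rw [← e1, ← e2]
      _ = ((1 - plat t) * t + plat t * (1 - t)) * (p + q) := by ring
      _ ≤ 17 / 16 * min t (1 - t) * (p + q) := h2
      _ = 17 / 16 * min p q := by rw [e3]; ring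

theorem plat_left {p q : ℝ} (hp : 0 ≤ p) (hq : 0 ≤ q) :
    plat (p / (p + q)) * (p + q) ≤ 5 * p := by
  rcases (add_nonneg hp hq).eq_or_lt with h | h
  · rw [← h, mul_zero]; linarith
  · have h1 := mul_le_mul_of_nonneg_right (plat_le (div_nonneg hp h.le)) h.le
    have e : 5 * (p / (p + q)) * (p + q) = 5 * p := by field_simp
    rwa [e] at h1

theorem plat_right {p q : ℝ} (hp : 0 ≤ p) (hq : 0 ≤ q) :
    (1 - plat (p / (p + q))) * (p + q) ≤ 5 * q := by
  rcases (add_nonneg hp hq).eq_or_lt with h | h
  · rw [← h, mul_zero]; linarith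
  · have h1 := mul_le_mul_of_nonneg_right
      (plat_ge (t := p / (p + q)) (by rw [div_le_one h]; linarith)) h.le
    have e : 5 * (1 - p / (p + q)) * (p + q) = 5 * q := by field_simp; ring
    rwa [e] at h1

theorem ratio_lip {p q p' q' δ : ℝ} (hp : 0 ≤ p) (hq : 0 ≤ q) (hp' : 0 ≤ p') (hq' : 0 ≤ q')
    (h1 : |p - p'| ≤ δ) (h2 : |q - q'| ≤ δ) :
    |p / (p + q) - p' / (p' + q')| * (p' + q') ≤ δ := by
  have hδ : 0 ≤ δ := (abs_nonneg _).trans h1
  rcases (add_nonneg hp' hq').eq_or_lt with h' | h'
  · rw [← h', mul_zero]; exact hδ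
  rcases (add_nonneg hp hq).eq_or_lt with h | h
  · have hp0 : p = 0 := by linarith
    have hq0 : q = 0 := by linarith
    subst hp0 hq0
    rw [zero_div, zero_sub, abs_neg, abs_of_nonneg (div_nonneg hp' h'.le), div_mul_cancel₀ _ h'.ne']
    rw [zero_sub, abs_neg, abs_of_nonneg hp'] at h1
    exact h1
  · have e : |p / (p + q) - p' / (p' + q')| * (p' + q') = |p * (q' - q) + q * (p - p')| / (p + q) := by
      rw [← abs_of_pos h', ← abs_mul, abs_of_pos h', ← abs_of_pos h, ← abs_div, abs_of_pos h]
      congr 1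
      field_simp
      ring
    rw [e, div_le_iff₀ h]
    refine (abs_add_le _ _).trans ?_
    rw [abs_mul, abs_mul, abs_of_nonneg hp, abs_of_nonneg hq, abs_sub_comm q' q]
    have := mul_le_mul_of_nonneg_left h2 hp
    have := mul_le_mul_of_nonneg_left h1 hq
    linarith

/-- random rounding on a finite set of heights -/
theorem exists_lane {V : Type} [Finite V] {A : Set V} (hA : A.Nonempty) (h : V → ℝ) :
    ∃ (lo hi : ℝ → V) (g : ℝ → ℝ), (∀ u, lo u ∈ A) ∧ (∀ u, hi u ∈ A) ∧ (∀ u, 0 ≤ g u ∧ g u ≤ 1) ∧
      (∀ u, ∀ a ∈ A, (1 - g u) * |h (lo u) - u| + g u * |h (hi u) - u| ≤ 17 / 16 * |h a - u|) ∧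
      ∀ (S : Finset ℝ) (ι : Type) (_ : Fintype ι) (w : ι → ℝ) (c : ι → ℝ → Bool), Unif S w c →
        ∀ u u', g u ∈ S → g u' ∈ S →
        ∑ i, w i * |h (if c i (g u) then hi u else lo u) - h (if c i (g u') then hi u' else lo u')|
          ≤ 5 * |u - u'| := by
  classical
  obtain ⟨m, hm, hmin⟩ := Set.exists_min_image A h (Set.toFinite _) hA
  obtain ⟨M, hM, hmax⟩ := Set.exists_max_image A h (Set.toFinite _) hA
  obtain ⟨cl, hcl⟩ : ∃ cl : ℝ → ℝ, cl = fun u => max (h m) (min (h M) u) := ⟨_, rfl⟩
  have hmM : h m ≤ h M := hmin M hM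
  have hcl1 : ∀ u, h m ≤ cl u := fun u => by rw [hcl]; exact le_max_left _ _
  have hcl2 : ∀ u, cl u ≤ h M := fun u => by rw [hcl]; exact max_le hmM (min_le_left _ _)
  have hclm : ∀ u u', u ≤ u' → cl u ≤ cl u' := fun u u' huu => by
    rw [hcl]
    exact max_le_max le_rfl (min_le_min le_rfl huu)
  have hcll : ∀ u u', |cl u - cl u'| ≤ |u - u'| := fun u u' => by
    rw [hcl]
    refine (abs_max_sub_max_le_max _ _ _ _).trans (max_le ?_ ?_)
    · rw [sub_self, abs_zero]; exact abs_nonneg _
    · refine (abs_min_sub_min_le_max _ _ _ _).trans (max_le ?_ le_rfl)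
      rw [sub_self, abs_zero]; exact abs_nonneg _
  have hcla : ∀ u, ∀ a ∈ A, |h a - cl u| + |cl u - u| ≤ |h a - u| := by
    intro u a ha
    have h1 := hmin a ha
    have h2 := hmax a ha
    rw [hcl]
    beta_reduce
    rcases le_total u (h M) with h3 | h3
    · rw [min_eq_right h3]
      rcases le_total (h m) u with h4 | h4
      · rw [max_eq_right h4, sub_self, abs_zero, add_zero]
      · rw [max_eq_left h4, abs_of_nonneg (by linarith), abs_of_nonneg (by linarith),
          abs_of_nonneg (by linarith)]
        linarith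
    · rw [min_eq_left h3, max_eq_right hmM, abs_of_nonpos (by linarith),
        abs_of_nonpos (by linarith), abs_of_nonpos (by linarith)]
      linarith
  have hlo : ∀ u, ∃ a ∈ A, h a ≤ cl u ∧ ∀ b ∈ A, h b ≤ cl u → h b ≤ h a := by
    intro u
    obtain ⟨a, ⟨ha, ha'⟩, hb⟩ := Set.exists_max_image {a | a ∈ A ∧ h a ≤ cl u} h (Set.toFinite _)
      ⟨m, hm, hcl1 u⟩
    exact ⟨a, ha, ha', fun b hbA hbc => hb b ⟨hbA, hbc⟩⟩
  have hhi : ∀ u, ∃ a ∈ A, cl u ≤ h a ∧ ∀ b ∈ A, cl u ≤ h b → h a ≤ h b := by
    intro u
    obtain ⟨a, ⟨ha, ha'⟩, hb⟩ := Set.exists_min_image {a | a ∈ A ∧ cl u ≤ h a} h (Set.toFinite _)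
      ⟨M, hM, hcl2 u⟩
    exact ⟨a, ha, ha', fun b hbA hbc => hb b ⟨hbA, hbc⟩⟩
  choose lo lo1 lo2 lo3 using hlo
  choose hi hi1 hi2 hi3 using hhi
  obtain ⟨g, hg⟩ : ∃ g : ℝ → ℝ, g = fun u =>
    plat ((cl u - h (lo u)) / ((cl u - h (lo u)) + (h (hi u) - cl u))) := ⟨_, rfl⟩
  have hgu : ∀ u, g u = plat ((cl u - h (lo u)) / ((cl u - h (lo u)) + (h (hi u) - cl u))) :=
    fun u => by rw [hg]
  have hg0 : ∀ u, 0 ≤ g u := fun u => by rw [hgu]; exact plat_nonneg _
  have hg1 : ∀ u, g u ≤ 1 := fun u => by rw [hgu]; exact plat_le_one _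
  have hp : ∀ u, 0 ≤ cl u - h (lo u) := fun u => by linarith [lo2 u]
  have hq : ∀ u, 0 ≤ h (hi u) - cl u := fun u => by linarith [hi2 u]
  refine ⟨lo, hi, g, lo1, hi1, fun u => ⟨hg0 u, hg1 u⟩, ?_, ?_⟩
  · intro u a ha
    have h1 := plat_mix (hp u) (hq u)
    rw [← hgu] at h1
    have h2 := hcla u a ha
    have h3 : min (cl u - h (lo u)) (h (hi u) - cl u) ≤ |h a - cl u| := by
      rcases le_total (h a) (cl u) with h4 | h4
      · have h5 := lo3 u a ha h4
        rw [abs_of_nonpos (by linarith)]
        exact (min_le_left _ _).trans (by linarith)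
      · have h5 := hi3 u a ha h4
        rw [abs_of_nonneg (by linarith)]
        exact (min_le_right _ _).trans (by linarith)
    have h4 : |h (lo u) - u| ≤ (cl u - h (lo u)) + |cl u - u| := by
      have := abs_sub_le (h (lo u)) (cl u) u
      rwa [abs_of_nonpos (by linarith [hp u] : h (lo u) - cl u ≤ 0), neg_sub] at this
    have h5 : |h (hi u) - u| ≤ (h (hi u) - cl u) + |cl u - u| := by
      have := abs_sub_le (h (hi u)) (cl u) u
      rwa [abs_of_nonneg (hq u)] at this
    have h6 := mul_le_mul_of_nonneg_left h4 (by linarith [hg1 u] : 0 ≤ 1 - g u)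
    have h7 := mul_le_mul_of_nonneg_left h5 (hg0 u)
    have h8 := abs_nonneg (cl u - u)
    nlinarith
  · intro S ι _ w c hU
    -- the case `u ≤ u'`
    have key : ∀ u u', u ≤ u' → g u ∈ S → g u' ∈ S →
        ∑ i, w i * |h (if c i (g u) then hi u else lo u) - h (if c i (g u') then hi u' else lo u')|
          ≤ 5 * |u - u'| := by
      intro u u' huu hu hu'
      have hvv := hclm u u' huu
      have hl := hcll u u'
      rw [abs_of_nonpos (by linarith : cl u - cl u' ≤ 0), neg_sub] at hl
      by_cases hex : ∃ a ∈ A, cl u ≤ h a ∧ h a ≤ cl u'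
      · obtain ⟨a, ha, ha1, ha2⟩ := hex
        have b1 := hi3 u a ha ha1
        have b2 := lo3 u' a ha ha2
        have e1 : ∑ i, w i * |h (if c i (g u) then hi u else lo u) - h (hi u)| =
            (1 - g u) * |h (lo u) - h (hi u)| + g u * |h (hi u) - h (hi u)| := by
          have := hU.exp hu (fun b => |h (if b then hi u else lo u) - h (hi u)|)
          simpa using this
        have e2 : ∑ i, w i * |h (lo u') - h (if c i (g u') then hi u' else lo u')| =
            (1 - g u') * |h (lo u') - h (lo u')| + g u' * |h (lo u') - h (hi u')| := by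
          have := hU.exp hu' (fun b => |h (lo u') - h (if b then hi u' else lo u')|)
          simpa using this
        have e3 : ∑ i, w i * |h (hi u) - h (lo u')| = |h (hi u) - h (lo u')| := hU.const _
        have hs : ∑ i, w i * |h (if c i (g u) then hi u else lo u) -
            h (if c i (g u') then hi u' else lo u')| ≤
            ∑ i, w i * |h (if c i (g u) then hi u else lo u) - h (hi u)| +
            ∑ i, w i * |h (hi u) - h (lo u')| +
            ∑ i, w i * |h (lo u') - h (if c i (g u') then hi u' else lo u')| := by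
          rw [← Finset.sum_add_distrib, ← Finset.sum_add_distrib]
          refine Finset.sum_le_sum fun i _ => ?_
          rw [← mul_add, ← mul_add]
          refine mul_le_mul_of_nonneg_left ?_ (hU.nn i)
          have t1 := abs_sub_le (h (if c i (g u) then hi u else lo u)) (h (hi u))
            (h (if c i (g u') then hi u' else lo u'))
          have t2 := abs_sub_le (h (hi u)) (h (lo u')) (h (if c i (g u') then hi u' else lo u'))
          linarith
        rw [e1, e2, e3, sub_self, abs_zero, mul_zero, add_zero, sub_self, abs_zero, mul_zero,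
          zero_add, abs_of_nonpos (by linarith [lo2 u, hi2 u] : h (lo u) - h (hi u) ≤ 0),
          abs_of_nonpos (by linarith : h (hi u) - h (lo u') ≤ 0),
          abs_of_nonpos (by linarith [lo2 u', hi2 u'] : h (lo u') - h (hi u') ≤ 0)] at hs
        have k1 := plat_right (hp u) (hq u)
        rw [← hgu] at k1
        have k2 := plat_left (hp u') (hq u')
        rw [← hgu] at k2
        have k3 : (cl u - h (lo u)) + (h (hi u) - cl u) = -(h (lo u) - h (hi u)) := by ring
        have k4 : (cl u' - h (lo u')) + (h (hi u') - cl u') = -(h (lo u') - h (hi u')) := by ring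
        rw [k3] at k1
        rw [k4] at k2
        linarith
      · push Not at hex
        have hlo1 : h (lo u) = h (lo u') := by
          apply le_antisymm
          · exact lo3 u' (lo u) (lo1 u) ((lo2 u).trans hvv)
          · refine lo3 u (lo u') (lo1 u') ?_
            by_contra hcon
            push Not at hcon
            have := hex (lo u') (lo1 u') hcon.le
            linarith [lo2 u']
        have hhi1 : h (hi u) = h (hi u') := by
          apply le_antisymm
          · exact hi3 u (hi u') (hi1 u') (hvv.trans (hi2 u'))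
          · refine hi3 u' (hi u) (hi1 u) ?_
            exact (hex (hi u) (hi1 u) (hi2 u)).le
        have hpos : 0 < (cl u - h (lo u)) + (h (hi u) - cl u) := by
          have := hex (hi u) (hi1 u) (hi2 u)
          have := hp u
          by_contra hcon
          have h9 : h (hi u) = cl u := by linarith [hq u]
          linarith [hex (hi u) (hi1 u) (hi2 u)]
        have e : ∀ i, w i * |h (if c i (g u) then hi u else lo u) -
            h (if c i (g u') then hi u' else lo u')| =
            w i * (if c i (g u) = c i (g u') then 0 else 1) *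
              ((cl u - h (lo u)) + (h (hi u) - cl u)) := by
          intro i
          have e1 : |h (hi u') - h (lo u')| = (cl u - h (lo u)) + (h (hi u) - cl u) := by
            rw [← hlo1, ← hhi1, abs_of_nonneg (by linarith)]
            ring
          cases hc1 : c i (g u) <;> cases hc2 : c i (g u')
          · simp [hlo1]
          · simp only [Bool.false_eq_true, if_false, if_true, hlo1, hhi1] at e1 ⊢
            rw [abs_sub_comm, e1]
            simp
          · simp only [Bool.false_eq_true, if_false, if_true, hlo1, hhi1] at e1 ⊢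
            rw [e1]
            simp
          · simp [hhi1]
        rw [Finset.sum_congr rfl fun i _ => e i, ← Finset.sum_mul, hU.two _ hu _ hu']
        have k1 : |g u - g u'| ≤ 5 * |(cl u - h (lo u)) / ((cl u - h (lo u)) + (h (hi u) - cl u)) -
            (cl u' - h (lo u')) / ((cl u' - h (lo u')) + (h (hi u') - cl u'))| := by
          rw [hgu, hgu]
          exact plat_lip _ _
        have k2 : (cl u' - h (lo u')) + (h (hi u') - cl u') =
            (cl u - h (lo u)) + (h (hi u) - cl u) := by rw [← hlo1, ← hhi1]; ring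
        rw [k2, ← sub_div, abs_div, abs_of_pos hpos, ← hlo1] at k1
        have k3 := mul_le_mul_of_nonneg_right k1 hpos.le
        have k4 : 5 * (|cl u - h (lo u) - (cl u' - h (lo u))| /
            ((cl u - h (lo u)) + (h (hi u) - cl u))) * ((cl u - h (lo u)) + (h (hi u) - cl u)) =
            5 * |cl u - cl u'| := by
          rw [mul_assoc, div_mul_cancel₀ _ hpos.ne']
          congr 2
          ring
        rw [k4] at k3
        exact k3.trans (mul_le_mul_of_nonneg_left (hcll u u') (by norm_num))
    intro u u' hu hu'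
    rcases le_total u u' with h1 | h1
    · exact key u u' h1 hu hu'
    · have h2 := key u' u h1 hu' hu
      rw [abs_sub_comm u' u] at h2
      refine le_trans (le_of_eq ?_) h2
      exact Finset.sum_congr rfl fun i _ => by rw [abs_sub_comm]

end Vale.Agent.P235.H643
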